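import Vale.Agent.P097.H402.Rat.Defs

/-! # P097 / RAT-G (helper373): the class `RatCl` has rational logarithmic derivatives with real
residues at the simple poles. -/

set_option linter.all false

open Complex Metric Filter Topology Set Polynomial

namespace Vale.Agent.P097.H373

open Vale.Agent.P097.TA Vale.Agent.P097.H202 Vale.Agent.P097.H402.Rat

/-! ### real functions as polynomials in `z = exp (i x)` -/

theorem ez_ne (x : ℂ) : ez x ≠ 0 := Complex.exp_ne_zero _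

theorem hasDerivAt_ez (x : ℝ) : HasDerivAt (fun y : ℝ => ez y) (I * ez x) x := by
  have h1 : HasDerivAt (fun z : ℂ => Complex.exp (I * z)) (Complex.exp (I * x) * (I * 1)) (x : ℂ) :=
    ((hasDerivAt_id (x : ℂ)).const_mul I).cexp
  have h2 := h1.comp_ofReal
  have e : Complex.exp (I * x) * (I * 1) = I * ez x := by simp only [ez]; ring
  rw [e] at h2
  exact h2

theorem exists_ez {z : ℂ} (hz : ‖z‖ = 1) : ∃ x : ℝ, ez x = z := by
  refine ⟨Complex.arg z, ?_⟩
  have := Complex.norm_mul_exp_arg_mul_I z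
  rw [hz] at this
  simp only [Complex.ofReal_one, one_mul] at this
  rw [ez, mul_comm]
  exact this

/-- `T x * z ^ n = t (z)` -/
def Rep (T : ℝ → ℝ) (n : ℕ) (t : ℂ[X]) : Prop := ∀ x : ℝ, (T x : ℂ) * ez x ^ n = t.eval (ez x)

theorem Rep.shift {T : ℝ → ℝ} {n : ℕ} {t : ℂ[X]} (h : Rep T n t) (m : ℕ) :
    Rep T (n + m) (X ^ m * t) := by
  intro x
  have := h x
  simp only [eval_mul, eval_pow, eval_X]
  rw [← this]
  ring

theorem ez_pow (x : ℝ) (k : ℕ) : ez x ^ k = Complex.exp (k * (I * x)) := by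
  rw [ez, ← Complex.exp_nat_mul]

theorem TrigP.rep {T : ℝ → ℝ} (hT : TrigP T) :
    (∀ x, DifferentiableAt ℝ T x) ∧ ∃ n t, Rep T n t := by
  obtain ⟨n, a, b, h⟩ := hT
  have hT : T = fun x => ∑ k ∈ Finset.range (n + 1),
      (a k * Real.cos (k * x) + b k * Real.sin (k * x)) := funext h
  constructor
  · intro x
    rw [hT]
    fun_prop
  · refine ⟨n, ∑ k ∈ Finset.range (n + 1),
      (C ((a k : ℂ) / 2) * (X ^ (n + k) + X ^ (n - k)) +
        C ((b k : ℂ) / (2 * I)) * (X ^ (n + k) - X ^ (n - k))), fun x => ?_⟩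
    rw [h x, eval_finset_sum, Complex.ofReal_sum, Finset.sum_mul]
    refine Finset.sum_congr rfl fun k hk => ?_
    have hk' : k ≤ n := by
      rw [Finset.mem_range] at hk
      omega
    simp only [eval_add, eval_mul, eval_C, eval_sub, eval_pow, eval_X]
    have e1 : ez x ^ (n + k) = ez x ^ n * Complex.exp (k * (I * x)) := by
      rw [pow_add, ez_pow x k]
    have e2 : ez x ^ (n - k) = ez x ^ n * Complex.exp (-(k * (I * x))) := by
      have h3 : ez x ^ (n - k) * ez x ^ k = ez x ^ n := by rw [← pow_add]; congr 1; omega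
      rw [← h3, ez_pow x k, mul_assoc, ← Complex.exp_add]
      simp
    have h4 : Complex.exp (k * (I * x)) = Complex.cos (k * x) + Complex.sin (k * x) * I := by
      rw [← Complex.exp_mul_I]; congr 1; ring
    have h5 : Complex.exp (-(k * (I * x))) = Complex.cos (k * x) - Complex.sin (k * x) * I := by
      have : -((k : ℂ) * (I * x)) = (-(k * x)) * I := by ring
      rw [this, Complex.exp_mul_I, Complex.cos_neg, Complex.sin_neg]
      ring
    rw [e1, e2, h4, h5]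
    push_cast
    field_simp
    ring_nf
    try simp [I_sq]
    try ring

theorem Rep.deriv {T : ℝ → ℝ} {n : ℕ} {t : ℂ[X]} (h : Rep T n t) {T' : ℝ} {x : ℝ}
    (hT : HasDerivAt T T' x) :
    (T' : ℂ) * ez x ^ n = I * (ez x * t.derivative.eval (ez x) - n * t.eval (ez x)) := by
  have h1 : HasDerivAt (fun y : ℝ => (T y : ℂ) * ez y ^ n)
      ((T' : ℂ) * ez x ^ n + (T x : ℂ) * (n * ez x ^ (n - 1) * (I * ez x))) x :=
    hT.ofReal_comp.mul ((hasDerivAt_ez x).pow n)
  have h2 : HasDerivAt (fun y : ℝ => t.eval (ez y)) (t.derivative.eval (ez x) * (I * ez x)) x :=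
    HasDerivAt.comp x (h₂ := fun z : ℂ => t.eval z) (t.hasDerivAt (ez x)) (hasDerivAt_ez x)
  have h3 : (fun y : ℝ => (T y : ℂ) * ez y ^ n) = fun y : ℝ => t.eval (ez y) := funext h
  rw [h3] at h1
  have h4 := h1.unique h2
  have h5 : (n : ℂ) * ez x ^ (n - 1) * (I * ez x) = n * I * ez x ^ n := by
    rcases n with _ | n
    · simp
    · simp only [Nat.add_sub_cancel]
      rw [pow_succ]
      ring
  rw [h5] at h4
  rw [← h x]
  linear_combination h4

theorem Rep.ne {T : ℝ → ℝ} {n : ℕ} {t : ℂ[X]} (h : Rep T n t) (hT : ∀ x, T x ≠ 0) {z : ℂ}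
    (hz : ‖z‖ = 1) : t.eval z ≠ 0 := by
  obtain ⟨x, rfl⟩ := exists_ez hz
  rw [← h x]
  exact mul_ne_zero (by exact_mod_cast hT x) (pow_ne_zero _ (ez_ne _))

/-! ### logarithmic derivatives -/

/-- the pair `A / B` has at most a simple pole with real residue at `z₀` -/
def Res (A B : ℂ[X]) (z₀ : ℂ) : Prop :=
  ∃ (m : ℕ) (σ : ℝ) (A₁ B₁ : ℂ[X]), B = (X - C z₀) ^ m * B₁ ∧ (X - C z₀) * A = (X - C z₀) ^ m * A₁ ∧
    B₁.eval z₀ ≠ 0 ∧ A₁.eval z₀ = σ * B₁.eval z₀

theorem Res.add {A B A' B' : ℂ[X]} {z₀ : ℂ} (h : Res A B z₀) (h' : Res A' B' z₀) :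
    Res (A * B' + A' * B) (B * B') z₀ := by
  obtain ⟨m, σ, A₁, B₁, e1, e2, e3, e4⟩ := h
  obtain ⟨m', σ', A₁', B₁', e1', e2', e3', e4'⟩ := h'
  refine ⟨m + m', σ + σ', A₁ * B₁' + A₁' * B₁, B₁ * B₁', ?_, ?_, ?_, ?_⟩
  · rw [e1, e1']; ring
  · have : (X - C z₀) * (A * B' + A' * B) =
      ((X - C z₀) * A) * B' + ((X - C z₀) * A') * B := by ring
    rw [this, e2, e2', e1, e1']; ring
  · rw [eval_mul]; exact mul_ne_zero e3 e3'
  · simp only [eval_add, eval_mul, e4, e4']; push_cast; ring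

theorem res_log {p : ℂ[X]} (hp : p ≠ 0) (s : ℝ) (z₀ : ℂ) :
    Res (C (s : ℂ) * derivative p) p z₀ := by
  obtain ⟨q, hq, hq'⟩ := exists_eq_pow_rootMultiplicity_mul_and_not_dvd p hp z₀
  set m := rootMultiplicity z₀ p with hm
  have hqz : q.eval z₀ ≠ 0 := by
    intro h
    exact hq' (dvd_iff_isRoot.2 h)
  refine ⟨m, s * m, C (s : ℂ) * (C (m : ℂ) * q + (X - C z₀) * derivative q), q, hq, ?_, hqz, ?_⟩
  · have hd : derivative p = C (m : ℂ) * (X - C z₀) ^ (m - 1) * q +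
        (X - C z₀) ^ m * derivative q := by
      rw [hq, derivative_mul, derivative_X_sub_C_pow]
    have h2 : (X - C z₀) * (C (m : ℂ) * (X - C z₀) ^ (m - 1) * q) =
        C (m : ℂ) * (X - C z₀) ^ m * q := by
      rcases m with _ | m
      · simp
      · simp only [Nat.add_sub_cancel]; ring
    calc (X - C z₀) * (C (s : ℂ) * derivative p)
        = C (s : ℂ) * ((X - C z₀) * derivative p) := by ring
      _ = C (s : ℂ) * ((X - C z₀) * (C (m : ℂ) * (X - C z₀) ^ (m - 1) * q) +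
          (X - C z₀) * ((X - C z₀) ^ m * derivative q)) := by rw [hd]; ring
      _ = _ := by rw [h2]; ring
  · simp only [eval_add, eval_mul, eval_C, eval_sub, eval_X]
    push_cast
    ring

/-- `L = i (z A / B - κ)` on the unit circle -/
structure LD (L : ℝ → ℝ) (κ : ℝ) (A B : ℂ[X]) : Prop where
  B0 : ∀ z : ℂ, ‖z‖ = 1 → B.eval z ≠ 0
  eq : ∀ x : ℝ, (L x : ℂ) * B.eval (ez x) =
    I * (ez x * A.eval (ez x) - κ * B.eval (ez x))
  res : ∀ z₀ : ℂ, Res A B z₀

theorem LD.zero : LD (fun _ => 0) 0 0 1 where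
  B0 := by simp
  eq := by simp
  res := fun z₀ => ⟨0, 0, 0, 1, by simp, by simp, by simp, by simp⟩

theorem LD.add {L L' : ℝ → ℝ} {κ κ' : ℝ} {A B A' B' : ℂ[X]} (h : LD L κ A B)
    (h' : LD L' κ' A' B') :
    LD (fun x => L x + L' x) (κ + κ') (A * B' + A' * B) (B * B') where
  B0 := fun z hz => by rw [eval_mul]; exact mul_ne_zero (h.B0 z hz) (h'.B0 z hz)
  eq := fun x => by
    have e1 := h.eq x
    have e2 := h'.eq x
    simp only [eval_add, eval_mul]
    push_cast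
    linear_combination B'.eval (ez x) * e1 + B.eval (ez x) * e2
  res := fun z₀ => (h.res z₀).add (h'.res z₀)

theorem LD.log {P P' : ℝ → ℝ} (hP : TrigP P) (h0 : ∀ x, P x ≠ 0)
    (hd : ∀ x, HasDerivAt P (P' x) x) (s : ℝ) :
    ∃ κ A B, LD (fun x => s * (P' x / P x)) κ A B := by
  obtain ⟨-, n, p, hp⟩ := TrigP.rep hP
  have hpne : p ≠ 0 := by
    rintro rfl
    have := hp.ne h0 (z := 1) (by simp)
    simp at this
  refine ⟨s * n, C (s : ℂ) * derivative p, p, ⟨fun z hz => hp.ne h0 hz, fun x => ?_,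
    res_log hpne s⟩⟩
  have e1 := hp x
  have e2 := hp.deriv (hd x)
  have h1 : (P x : ℂ) ≠ 0 := by exact_mod_cast h0 x
  simp only [eval_mul, eval_C]
  rw [← e1] at e2 ⊢
  push_cast
  field_simp
  linear_combination (s : ℂ) * e2

theorem LD.sum {n : ℕ} {P P' : Fin n → ℝ → ℝ} (hP : ∀ i, TrigP (P i)) (h0 : ∀ i x, P i x ≠ 0)
    (hd : ∀ i x, HasDerivAt (P i) (P' i x) x) (s : Fin n → ℝ) :
    ∃ κ A B, LD (fun x => ∑ i, s i * (P' i x / P i x)) κ A B := by
  classical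
  have : ∀ t : Finset (Fin n), ∃ κ A B, LD (fun x => ∑ i ∈ t, s i * (P' i x / P i x)) κ A B := by
    intro t
    induction t using Finset.induction_on with
    | empty => exact ⟨0, 0, 1, by simpa using LD.zero⟩
    | insert a t ha ih =>
      obtain ⟨κ, A, B, h⟩ := ih
      obtain ⟨κ', A', B', h'⟩ := LD.log (hP a) (h0 a) (hd a) (s a)
      refine ⟨κ' + κ, A' * B + A * B', B' * B, ?_⟩
      simp only [Finset.sum_insert ha]
      exact h'.add h
  exact this Finset.univ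

/-- the residue computation -/
theorem residue {u v A B N D : ℂ[X]} {κ : ℝ} {z₀ : ℂ} (hv : v ≠ 0) (hz₀ : z₀ ≠ 0)
    (hres : Res A B z₀)
    (hND : N * (v ^ 2 * B) = C I * (X * ((derivative u * v - u * derivative v) * B + A * v ^ 2) -
      C (κ : ℂ) * (v ^ 2 * B)) * D)
    (hD : D.eval z₀ = 0) (hD' : (derivative D).eval z₀ ≠ 0) :
    ∃ σ : ℝ, N.eval z₀ = I * z₀ * σ * (derivative D).eval z₀ := by
  obtain ⟨D₁, hD₁⟩ : (X - C z₀) ∣ D := dvd_iff_isRoot.2 hD
  have hD₁z : (derivative D).eval z₀ = D₁.eval z₀ := by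
    rw [hD₁, derivative_mul]
    simp
  rw [hD₁z] at hD' ⊢
  obtain ⟨m, σ, A₁, B₁, e1, e2, e3, e4⟩ := hres
  obtain ⟨v₁, hv₁, hv₁'⟩ := exists_eq_pow_rootMultiplicity_mul_and_not_dvd v hv z₀
  set a := rootMultiplicity z₀ v with ha
  have hv₁z : v₁.eval z₀ ≠ 0 := fun h => hv₁' (dvd_iff_isRoot.2 h)
  set y : ℂ[X] := X - C z₀ with hy
  have hy0 : y ≠ 0 := X_sub_C_ne_zero z₀
  have hyz : y.eval z₀ = 0 := by simp [hy]
  refine ⟨σ, ?_⟩
  -- the case `u = 0`
  by_cases hu : u = 0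
  · have h1 : y ^ (2 * a + m) * (N * (v₁ ^ 2 * B₁)) =
        y ^ (2 * a + m) * (C I * D₁ * (X * (A₁ * v₁ ^ 2) - C (κ : ℂ) * (y * (v₁ ^ 2 * B₁)))) := by
      calc y ^ (2 * a + m) * (N * (v₁ ^ 2 * B₁)) = N * (v ^ 2 * B) := by rw [e1, hv₁]; ring
        _ = C I * (X * ((y * A) * v ^ 2) - C (κ : ℂ) * (y * (v ^ 2 * B))) * D₁ := by
          rw [hND, hD₁, hu]; simp only [derivative_zero]; ring
        _ = _ := by rw [e2, e1, hv₁]; ring
    have h2 := mul_left_cancel₀ (pow_ne_zero _ hy0) h1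
    have h3 := congrArg (eval z₀) h2
    simp only [eval_mul, eval_sub, eval_pow, eval_C, eval_X, hyz, e4] at h3
    have h4 : v₁.eval z₀ ^ 2 * B₁.eval z₀ ≠ 0 := mul_ne_zero (pow_ne_zero _ hv₁z) e3
    apply mul_right_cancel₀ h4
    linear_combination h3
  obtain ⟨u₁, hu₁, hu₁'⟩ := exists_eq_pow_rootMultiplicity_mul_and_not_dvd u hu z₀
  set b := rootMultiplicity z₀ u with hb
  have hu₁z : u₁.eval z₀ ≠ 0 := fun h => hu₁' (dvd_iff_isRoot.2 h)
  have hder : ∀ (w w₁ : ℂ[X]) (c : ℕ), w = y ^ c * w₁ →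
      y * derivative w = y ^ c * (C (c : ℂ) * w₁ + y * derivative w₁) := by
    intro w w₁ c hw
    rw [hw, derivative_mul, derivative_X_sub_C_pow]
    rcases c with _ | c
    · simp
    · simp only [Nat.add_sub_cancel, ← hy]; ring
  have hdu := hder u u₁ b hu₁
  have hdv := hder v v₁ a hv₁
  set E : ℂ[X] := C ((b : ℂ) - a) * (u₁ * v₁) +
    y * (derivative u₁ * v₁ - u₁ * derivative v₁) with hE
  have hW : y * (derivative u * v - u * derivative v) = y ^ (a + b) * E := by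
    calc y * (derivative u * v - u * derivative v)
        = (y * derivative u) * v - u * (y * derivative v) := by ring
      _ = _ := by
        rw [hdu, hdv, hE, C_sub]
        conv_lhs => rw [hv₁, hu₁]
        ring
  have h1 : y ^ m * (y ^ (2 * a) * (N * (v₁ ^ 2 * B₁))) =
      y ^ m * (C I * D₁ * (X * (y ^ (a + b) * (E * B₁) + y ^ (2 * a) * (A₁ * v₁ ^ 2)) -
        C (κ : ℂ) * (y ^ (2 * a) * (y * (v₁ ^ 2 * B₁))))) := by
    calc y ^ m * (y ^ (2 * a) * (N * (v₁ ^ 2 * B₁))) = N * (v ^ 2 * B) := by rw [e1, hv₁]; ring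
      _ = C I * (X * ((y * (derivative u * v - u * derivative v)) * B + (y * A) * v ^ 2) -
          C (κ : ℂ) * (y * (v ^ 2 * B))) * D₁ := by
        rw [hND, hD₁]; ring
      _ = _ := by rw [hW, e2, e1, hv₁]; ring
  have h2 := mul_left_cancel₀ (pow_ne_zero _ hy0) h1
  have hEz : E.eval z₀ = ((b : ℂ) - a) * (u₁.eval z₀ * v₁.eval z₀) := by
    simp only [hE, eval_add, eval_mul, eval_C, hyz, zero_mul, add_zero]
  rcases lt_or_ge b a with hlt | hge
  · exfalso
    obtain ⟨c, hc⟩ : ∃ c, a = b + (c + 1) := ⟨a - b - 1, by omega⟩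
    have h3 : y ^ (a + b) * (y ^ (c + 1) * (N * (v₁ ^ 2 * B₁))) =
        y ^ (a + b) * (C I * D₁ * (X * (E * B₁ + y ^ (c + 1) * (A₁ * v₁ ^ 2)) -
        C (κ : ℂ) * (y ^ (c + 1) * (y * (v₁ ^ 2 * B₁))))) := by
      have e5 : y ^ (2 * a) = y ^ (a + b) * y ^ (c + 1) := by
        rw [← pow_add]; congr 1; omega
      rw [e5] at h2
      linear_combination h2
    have h4 := mul_left_cancel₀ (pow_ne_zero _ hy0) h3
    have h5 := congrArg (eval z₀) h4
    simp only [eval_mul, eval_sub, eval_add, eval_pow, eval_C, eval_X, hyz, hEz,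
      zero_pow (Nat.succ_ne_zero c), zero_mul, mul_zero, add_zero, sub_zero] at h5
    have h6 : ((b : ℂ) - a) ≠ 0 := by
      rw [sub_ne_zero]
      exact_mod_cast hlt.ne
    have h7 : I * D₁.eval z₀ * (z₀ * (((b : ℂ) - a) * (u₁.eval z₀ * v₁.eval z₀) *
        B₁.eval z₀)) ≠ 0 :=
      mul_ne_zero (mul_ne_zero I_ne_zero hD') (mul_ne_zero hz₀ (mul_ne_zero
        (mul_ne_zero h6 (mul_ne_zero hu₁z hv₁z)) e3))
    exact h7 h5.symm
  · have h3 : y ^ (2 * a) * (N * (v₁ ^ 2 * B₁)) =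
        y ^ (2 * a) * (C I * D₁ * (X * (y ^ (b - a) * (E * B₁) + A₁ * v₁ ^ 2) -
        C (κ : ℂ) * (y * (v₁ ^ 2 * B₁)))) := by
      have e5 : y ^ (a + b) = y ^ (2 * a) * y ^ (b - a) := by
        rw [← pow_add]; congr 1; omega
      rw [e5] at h2
      linear_combination h2
    have h4 := mul_left_cancel₀ (pow_ne_zero _ hy0) h3
    have h5 := congrArg (eval z₀) h4
    simp only [eval_mul, eval_sub, eval_add, eval_pow, eval_C, eval_X, hyz, e4] at h5
    have h8 : (0 : ℂ) ^ (b - a) * E.eval z₀ = 0 := by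
      rcases hge.eq_or_lt with h | h
      · rw [hEz, h]; simp
      · rw [zero_pow (by omega), zero_mul]
    have h4 : v₁.eval z₀ ^ 2 * B₁.eval z₀ ≠ 0 := mul_ne_zero (pow_ne_zero _ hv₁z) e3
    apply mul_right_cancel₀ h4
    linear_combination h5 + I * D₁.eval z₀ * z₀ * B₁.eval z₀ * h8

theorem pg : PG := by
  intro g R δ hδ hR hRg hcl
  obtain ⟨U, V, n, P, s, hU, hV, hV0, hP, hP0, hg⟩ := hcl
  obtain ⟨hUd, nU, u, hu⟩ := TrigP.rep hU
  obtain ⟨hVd, nV, v, hv⟩ := TrigP.rep hV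
  have hu' := hu.shift nV
  have hv' := hv.shift nU
  rw [add_comm nV nU] at hv'
  clear hu hv
  set n₀ := nU + nV
  set u' := X ^ nV * u
  set v' := X ^ nU * v
  clear_value u' v' n₀
  obtain ⟨κ, A, B, hLD⟩ := LD.sum hP (fun i x => (hP0 i x).ne')
    (fun i x => ((TrigP.rep (hP i)).1 x).hasDerivAt) s
  have hv0 : ∀ z : ℂ, ‖z‖ = 1 → v'.eval z ≠ 0 := fun z hz => hv'.ne hV0 hz
  have hvne : v' ≠ 0 := by
    rintro rfl
    exact hv0 1 (by simp) (by simp)
  -- derivative of `g`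
  have hgd : ∀ x : ℝ, HasDerivAt g (g x * ((deriv U x * V x - U x * deriv V x) / V x ^ 2 +
      ∑ i, s i * (deriv (P i) x / P i x))) x := by
    intro x
    have hg2 : g = fun x => Real.exp (U x / V x + ∑ i, s i * Real.log (P i x)) := by
      funext y
      rw [hg y, Real.exp_add, Real.exp_sum]
      congr 1
      refine Finset.prod_congr rfl fun i _ => ?_
      rw [Real.rpow_def_of_pos (hP0 i y), mul_comm]
    have h1 : HasDerivAt (fun y => U y / V y + ∑ i, s i * Real.log (P i y))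
        ((deriv U x * V x - U x * deriv V x) / V x ^ 2 +
          ∑ i, s i * (deriv (P i) x / P i x)) x := by
      refine ((hUd x).hasDerivAt.div (hVd x).hasDerivAt (hV0 x)).add ?_
      refine HasDerivAt.fun_sum fun i _ => ?_
      exact ((((TrigP.rep (hP i)).1 x).hasDerivAt).log (hP0 i x).ne').const_mul (s i)
    have h2 := h1.exp
    rw [hg2]
    exact h2
  have hRd : ∀ x : ℝ, deriv R x = ((g x * ((deriv U x * V x - U x * deriv V x) / V x ^ 2 +
      ∑ i, s i * (deriv (P i) x / P i x)) : ℝ) : ℂ) := by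
    intro x
    have hx : (x : ℂ) ∈ Str δ := by simp [Str, hδ]
    have h1 : HasDerivAt R (deriv R x) (x : ℂ) :=
      (hR.differentiableAt ((isOpen_Str δ).mem_nhds hx)).hasDerivAt
    have h2 : HasDerivAt (fun y : ℝ => R y) (deriv R x) x := h1.comp_ofReal
    have h3 : (fun y : ℝ => R y) = fun y : ℝ => (g y : ℂ) := funext hRg
    rw [h3] at h2
    exact h2.unique (hgd x).ofReal_comp
  set N₀ : ℂ[X] := C I * (X * ((derivative u' * v' - u' * derivative v') * B + A * v' ^ 2) -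
      C (κ : ℂ) * (v' ^ 2 * B)) with hN₀
  set D₀ : ℂ[X] := v' ^ 2 * B with hD₀
  have hD₀0 : ∀ z : ℂ, ‖z‖ = 1 → D₀.eval z ≠ 0 := fun z hz => by
    rw [hD₀, eval_mul, eval_pow]
    exact mul_ne_zero (pow_ne_zero _ (hv0 z hz)) (hLD.B0 z hz)
  have hD₀ne : D₀ ≠ 0 := by
    intro h
    exact hD₀0 1 (by simp) (by rw [h]; simp)
  have hode : ∀ x : ℝ, deriv R x * D₀.eval (ez x) = N₀.eval (ez x) * R x := by
    intro x
    rw [hRd x, hRg x]
    have e1 := hLD.eq x
    have e2 := hu' x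
    have e3 := hv' x
    have e4 := hu'.deriv (hUd x).hasDerivAt
    have e5 := hv'.deriv (hVd x).hasDerivAt
    have hVc : (V x : ℂ) ≠ 0 := by exact_mod_cast hV0 x
    have e6 : (((deriv U x * V x - U x * deriv V x) / V x ^ 2 : ℝ) : ℂ) * v'.eval (ez x) ^ 2 =
        I * (ez x * ((derivative u').eval (ez x) * v'.eval (ez x) -
          u'.eval (ez x) * (derivative v').eval (ez x))) := by
      push_cast
      have : (((deriv U x : ℝ) : ℂ) * V x - U x * ((deriv V x : ℝ) : ℂ)) / V x ^ 2 *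
          v'.eval (ez x) ^ 2 =
          (((deriv U x : ℝ) : ℂ) * ez x ^ n₀) * ((V x : ℂ) * ez x ^ n₀) -
            ((U x : ℂ) * ez x ^ n₀) * (((deriv V x : ℝ) : ℂ) * ez x ^ n₀) := by
        rw [← e3]
        field_simp
      rw [this, e4, e5, e2, e3]
      ring
    simp only [hD₀, hN₀, eval_mul, eval_sub, eval_add, eval_C, eval_X, eval_pow]
    rw [Complex.ofReal_mul, Complex.ofReal_add]
    linear_combination (g x : ℂ) * B.eval (ez x) * e6 +
      (g x : ℂ) * v'.eval (ez x) ^ 2 * e1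
  -- lowest terms
  set G := EuclideanDomain.gcd N₀ D₀ with hG
  have hGN : G ∣ N₀ := EuclideanDomain.gcd_dvd_left _ _
  have hGD : G ∣ D₀ := EuclideanDomain.gcd_dvd_right _ _
  have hGne : G ≠ 0 := fun h => hD₀ne (by rw [h] at hGD; exact zero_dvd_iff.1 hGD)
  obtain ⟨N, hN⟩ := hGN
  obtain ⟨D, hD⟩ := hGD
  have hcop : IsCoprime N D := by
    obtain ⟨α, β, hab⟩ : ∃ α β : ℂ[X], G = N₀ * α + D₀ * β :=
      ⟨_, _, EuclideanDomain.gcd_eq_gcd_ab N₀ D₀⟩
    refine ⟨α, β, ?_⟩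
    apply mul_left_cancel₀ hGne
    calc G * (α * N + β * D) = (G * N) * α + (G * D) * β := by ring
      _ = G * 1 := by rw [← hN, ← hD, mul_one]; exact hab.symm
  have hD0' : ∀ z : ℂ, ‖z‖ = 1 → D.eval z ≠ 0 := fun z hz h => by
    apply hD₀0 z hz
    rw [hD, eval_mul, h, mul_zero]
  have hG0 : ∀ z : ℂ, ‖z‖ = 1 → G.eval z ≠ 0 := fun z hz h => by
    apply hD₀0 z hz
    rw [hD, eval_mul, h, zero_mul]
  refine ⟨N, D, ⟨hcop, hD0', fun x => ?_⟩, fun z₀ hz₀ hDz hDz' => ?_⟩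
  · have hz : ‖ez x‖ = 1 := by
      rw [ez, mul_comm]
      exact Complex.norm_exp_ofReal_mul_I x
    have h1 := hode x
    rw [hD, hN, eval_mul, eval_mul] at h1
    apply mul_left_cancel₀ (hG0 _ hz)
    linear_combination h1
  · refine residue (u := u') (A := A) (B := B) (κ := κ) hvne hz₀ (hLD.res z₀) ?_ hDz hDz'
    rw [← hD₀, ← hN₀, hD, hN]
    ring

end Vale.Agent.P097.H373
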